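import Vale.Agent.P097.H286.T.PtSt
import Vale.Agent.P097.H217.St.SelIn
import Vale.Agent.P097.H133.St.Lab
import Vale.Agent.P097.H920.St.PickIn

/-!
# P097 / block (T), ST-10 : `SelSt → TdSt → A5.PT`
-/

set_option linter.all false

open Set Filter Metric Topology MeasureTheory

namespace Vale.Agent.P097.H286.T

open Vale.Agent.P097.TC
open Vale.Agent.P097.A5 (W5 Sq Tou Nst LNb)
open Vale.Agent.P097.H560 (Sx Sm)
open Vale.Agent.P097.H226.W (Bx Qu SQ SW Md Vq)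
open Vale.Agent.P097.H509.St
open Vale.Agent.P097.H845.St (pt Pc)
open Vale.Agent.P097.H315 (Marc.Mz Marc.Jm)

/-- the choice at the index `n` -/
structure Good (H : ℝ) (F : ℂ → ℂ) (P : ℝ → ℂ) (Ψ : ℂ → ℂ) (A : Set ℝ) (al p th : ℂ × ℂ → ℂ)
    (Xp op X om e V C₀ : ℝ) (y u g : ℕ → ℝ) (τ : ℝ) (n : ℕ) (S yp xp rp E a : ℝ) : Prop where
  Sτ : S ≤ τ
  pk : Pick H F (al ∘ Sm P Ψ (y n) (u n) S) (p ∘ Sm P Ψ (y n) (u n) S)
    (th ∘ Sm P Ψ (y n) (u n) S) {x | u n + S * x ∈ A} (ball 0 2) Xp op X om e V C₀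
    (1 / ((n : ℝ) + 2)) (1 / ((n : ℝ) + 9)) yp xp rp E
  la : |u n + S * xp - a| ≤ Real.sqrt (8 * (1 / ((n : ℝ) + 2))) * (S * rp)

section
variable {Λ H : ℝ} {F q : ℂ → ℂ} {b m : ℝ} {Ψ : ℂ → ℂ} {Mj Mk B : Set (ℂ × ℂ)} {A : Set ℝ}
  {P : ℝ → ℂ} {c k : ℝ → ℝ} {K s y₀ u₀ σ : ℝ} {al p th : ℂ × ℂ → ℂ} {J : ℂ → ℂ}

theorem inv_lim (c₀ : ℝ) (hc : 0 < c₀) : Tendsto (fun n : ℕ => 1 / ((n : ℝ) + c₀)) atTop (𝓝 0) := by
  have h1 : Tendsto (fun n : ℕ => (n : ℝ) + c₀) atTop atTop :=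
    tendsto_atTop_add_const_right _ _ tendsto_natCast_atTop_atTop
  refine h1.inv_tendsto_atTop.congr fun n => ?_
  simp

/-- **ST-10** -/
theorem pt_core (hSel : SelSt) (hTd : TdSt)
    (W : W5 Λ H F q b m Ψ Mj Mk B A P c k K y₀ u₀ σ s al p th J) {y u : ℕ → ℝ}
    (hSq : Sq A y₀ u₀ y u) (hTo : ∀ y' u' : ℕ → ℝ, Sq A y₀ u₀ y' u' → Tou H P c u₀ σ th y' u')
    (hJ : ∀ n, ∀ η : ℝ, 0 < η → ∃ S₀ > 0, ∀ S : ℝ, 0 < S → S ≤ S₀ →
      8 * Marc.Jm {x | u n + S * x ∈ A} (ball 0 2) 0 ≤ ENNReal.ofReal η)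
    {g : ℕ → ℝ} {V₁ : ℝ} (hg : ∀ n, 0 < g n) (hL : LNb F q P c u₀ σ s al p th y u g V₁)
    {X om e V τ : ℝ} (hX : 2 ≤ X) (hom : 0 < om) (hom1 : om ≤ 1 / 2) (he : 0 < e) (hV : 0 ≤ V)
    (hτ : 0 < τ)
    (hin : ∀ᶠ n in atTop, ∀ S : ℝ, 0 < S → S ≤ τ → S ≤ τ * g n →
      (∀ t : ℝ, 0 < t → (X + 5) * t ≤ 1 →
        Md H F (th ∘ Sm P Ψ (y n) (u n) S) X om e t ∧
        |Vq F (al ∘ Sm P Ψ (y n) (u n) S) (th ∘ Sm P Ψ (y n) (u n) S) t| ≤ V) ∧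
      ∀ ε > 0, ∃ y' : ℝ, |y'| < ε ∧
        Tendsto (fun t : ℝ => |((th ∘ Sm P Ψ (y n) (u n) S) (pt y' 0 t)).im|) (𝓝[>] 0) (𝓝 H)) :
    False := by
  obtain ⟨𝒰, hU⟩ := Ultrafilter.exists_le (atTop : Filter ℕ)
  have hlk := H560.lim_of W.Uj hSq.uA W.u0 hSq.ut
  have hk0 : Tendsto (fun n => k (u n)) atTop (𝓝 (k u₀)) := hlk.2.2
  have hkσ : k u₀ ≤ σ := H190.SQ.k_le W hSq (hTo y u hSq) 𝒰 hU (hk0.mono_left hU)
  have hσs := W.σs
  set γ₀ : ℝ := (s - k u₀) / 4 with hγ₀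
  have hγ0 : 0 < γ₀ := by rw [hγ₀]; linarith
  obtain ⟨τ', hτ', hsw⟩ := H217.St.sw_ev W hSq hγ0
  have hgr := H190.SQ.grw_of W
  obtain ⟨Xp, op, X', om', e', V', C₀, ⟨b1, b2, b3, b4, b5, b6, b7, b8, b9⟩, hsel⟩ :=
    hSel W.crv.cv hgr (H217.St.per_of W) X om e V hX hom hom1 he hV
  have hX'2 : 2 ≤ X' := b1.trans b4
  -- the choice
  have key : ∀ᶠ n in atTop, ∃ t : ℝ × ℝ × ℝ × ℝ × ℝ × ℝ, t.2.2.2.2.2 ∈ A ∧ (0 < t.1 ∧
      t.1 ≤ g n ∧ t.1 ≤ 1 / ((n : ℝ) + 1)) ∧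
      Good H F P Ψ A al p th Xp op X' om' e' V' C₀ y u g τ' n t.1 t.2.1 t.2.2.1 t.2.2.2.1
        t.2.2.2.2.1 t.2.2.2.2.2 := by
    have hkn : ∀ᶠ n in atTop, k (u n) < k u₀ + γ₀ := hk0.eventually (gt_mem_nhds (by linarith))
    filter_upwards [hin, hsw, hkn] with n h1 h2 h3
    have hη : (0 : ℝ) < 1 / ((n : ℝ) + 2) := by positivity
    have hκ : (0 : ℝ) < 1 / ((n : ℝ) + 9) := by positivity
    have hη1 : 1 / ((n : ℝ) + 2) ≤ 1 / 2 :=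
      one_div_le_one_div_of_le (by norm_num) (by have := Nat.cast_nonneg (α := ℝ) n; linarith)
    have hκ1 : 1 / ((n : ℝ) + 9) ≤ 1 := by
      rw [div_le_one (by positivity)]
      have := Nat.cast_nonneg (α := ℝ) n
      linarith
    obtain ⟨S₀, hS₀, h4⟩ := hJ n _ hη
    have hn1 : (0 : ℝ) < 1 / ((n : ℝ) + 1) := by positivity
    obtain ⟨S, hS, s1, s2, s3, s4, s5, s6⟩ : ∃ S : ℝ, 0 < S ∧ S ≤ g n ∧ S ≤ 1 / ((n : ℝ) + 1) ∧
        S ≤ τ ∧ S ≤ τ * g n ∧ S ≤ τ' ∧ S ≤ S₀ := by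
      refine ⟨min (min (min (g n) (1 / ((n : ℝ) + 1))) (min τ (τ * g n))) (min τ' S₀), ?_,
        ?_, ?_, ?_, ?_, ?_, ?_⟩
      · have := hg n
        have := mul_pos hτ this
        positivity
      · exact (min_le_left _ _).trans ((min_le_left _ _).trans (min_le_left _ _))
      · exact (min_le_left _ _).trans ((min_le_left _ _).trans (min_le_right _ _))
      · exact (min_le_left _ _).trans ((min_le_right _ _).trans (min_le_left _ _))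
      · exact (min_le_left _ _).trans ((min_le_right _ _).trans (min_le_right _ _))
      · exact (min_le_right _ _).trans (min_le_left _ _)
      · exact (min_le_right _ _).trans (min_le_right _ _)
    obtain ⟨hMV, hwl⟩ := h1 S hS s3 s4
    have hSW := h2 S hS s5 γ₀ hγ0 (by rw [hγ₀] at *; linarith)
    have h0A : (0 : ℝ) ∈ {x : ℝ | u n + S * x ∈ A} := by
      show u n + S * 0 ∈ A
      rw [mul_zero, add_zero]
      exact hSq.uA n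
    obtain ⟨yp, xp, rp, E, pk⟩ := hsel _ _ hη hκ hSW hMV hwl measurableSet_ball h0A (h4 S hS s6)
    have hball : ball xp rp ⊆ ball 0 2 := by
      intro x hx
      rw [mem_ball, Real.dist_eq] at hx ⊢
      rw [sub_zero]
      have e1 : |x| ≤ |x - xp| + |xp| := by
        have := abs_add_le (x - xp) xp
        rwa [sub_add_cancel] at this
      have := pk.loc
      have := abs_nonneg yp
      linarith [pk.r0]
    obtain ⟨a, ha, hla⟩ := H133.St.lab_scale W.cA.isClosed (hSq.uA n) hS pk.r0 hball hη hη1 pk.mz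
    exact ⟨(S, yp, xp, rp, E, a), ha, ⟨hS, s1, s2⟩, s5, pk, hla⟩
  have key2 : ∀ n, ∃ t : ℝ × ℝ × ℝ × ℝ × ℝ × ℝ, t.2.2.2.2.2 ∈ A ∧ (0 < t.1 ∧
      t.1 ≤ g n ∧ t.1 ≤ 1 / ((n : ℝ) + 1)) ∧ ((∃ t' : ℝ × ℝ × ℝ × ℝ × ℝ × ℝ,
        t'.2.2.2.2.2 ∈ A ∧ (0 < t'.1 ∧ t'.1 ≤ g n ∧ t'.1 ≤ 1 / ((n : ℝ) + 1)) ∧
        Good H F P Ψ A al p th Xp op X' om' e' V' C₀ y u g τ' n t'.1 t'.2.1 t'.2.2.1 t'.2.2.2.1
        t'.2.2.2.2.1 t'.2.2.2.2.2) →
      Good H F P Ψ A al p th Xp op X' om' e' V' C₀ y u g τ' n t.1 t.2.1 t.2.2.1 t.2.2.2.1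
        t.2.2.2.2.1 t.2.2.2.2.2) := by
    intro n
    by_cases hex : ∃ t' : ℝ × ℝ × ℝ × ℝ × ℝ × ℝ,
        t'.2.2.2.2.2 ∈ A ∧ (0 < t'.1 ∧ t'.1 ≤ g n ∧ t'.1 ≤ 1 / ((n : ℝ) + 1)) ∧
        Good H F P Ψ A al p th Xp op X' om' e' V' C₀ y u g τ' n t'.1 t'.2.1 t'.2.2.1 t'.2.2.2.1
        t'.2.2.2.2.1 t'.2.2.2.2.2
    · obtain ⟨t, h1, h2, h3⟩ := hex
      exact ⟨t, h1, h2, fun _ => h3⟩
    · have hn1 : (0 : ℝ) < 1 / ((n : ℝ) + 1) := by positivity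
      exact ⟨(min (g n) (1 / ((n : ℝ) + 1)), 0, 0, 0, 0, u n), hSq.uA n,
        ⟨lt_min (hg n) hn1, min_le_left _ _, min_le_right _ _⟩, fun h => absurd h hex⟩
  choose t htA htS htG using key2
  have hG : ∀ᶠ n in atTop, Good H F P Ψ A al p th Xp op X' om' e' V' C₀ y u g τ' n (t n).1
      (t n).2.1 (t n).2.2.1 (t n).2.2.2.1 (t n).2.2.2.2.1 (t n).2.2.2.2.2 :=
    key.mono fun n h => htG n h
  clear htG key
  obtain ⟨S, hSe⟩ : ∃ S : ℕ → ℝ, S = fun n => (t n).1 := ⟨_, rfl⟩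
  obtain ⟨yp, hype⟩ : ∃ S : ℕ → ℝ, S = fun n => (t n).2.1 := ⟨_, rfl⟩
  obtain ⟨xp, hxpe⟩ : ∃ S : ℕ → ℝ, S = fun n => (t n).2.2.1 := ⟨_, rfl⟩
  obtain ⟨rp, hrpe⟩ : ∃ S : ℕ → ℝ, S = fun n => (t n).2.2.2.1 := ⟨_, rfl⟩
  obtain ⟨E, hEe⟩ : ∃ S : ℕ → ℝ, S = fun n => (t n).2.2.2.2.1 := ⟨_, rfl⟩
  obtain ⟨a, hae⟩ : ∃ S : ℕ → ℝ, S = fun n => (t n).2.2.2.2.2 := ⟨_, rfl⟩
  replace hG : ∀ᶠ n in atTop, Good H F P Ψ A al p th Xp op X' om' e' V' C₀ y u g τ' n (S n)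
      (yp n) (xp n) (rp n) (E n) (a n) := by
    rw [hSe, hype, hxpe, hrpe, hEe, hae]; exact hG
  have haA : ∀ n, a n ∈ A := by rw [hae]; exact htA
  have hS : ∀ n, 0 < S n ∧ S n ≤ g n ∧ S n ≤ 1 / ((n : ℝ) + 1) := by rw [hSe]; exact htS
  clear htA htS hSe hype hxpe hrpe hEe hae
  -- limits
  have hS0 : Tendsto S atTop (𝓝 0) :=
    squeeze_zero (fun n => (hS n).1.le) (fun n => (hS n).2.2) (inv_lim 1 one_pos)
  have hκ0 := inv_lim 9 (by norm_num)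
  have hloc : ∀ᶠ n in atTop, |yp n| ≤ 1 / ((n : ℝ) + 9) ∧ |xp n| ≤ 1 / ((n : ℝ) + 9) ∧
      0 < rp n ∧ rp n ≤ 1 / ((n : ℝ) + 9) := by
    filter_upwards [hG] with n h
    have h1 := h.pk.loc
    have h2 := h.pk.r0
    have h3 := abs_nonneg (yp n)
    have h4 := abs_nonneg (xp n)
    exact ⟨by linarith, by linarith, h2, by linarith⟩
  have hyp0 : Tendsto yp atTop (𝓝 0) := by
    rw [tendsto_zero_iff_abs_tendsto_zero]
    exact squeeze_zero' (Eventually.of_forall fun n => abs_nonneg _) (hloc.mono fun n h => h.1) hκ0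
  have hxp0 : Tendsto xp atTop (𝓝 0) := by
    rw [tendsto_zero_iff_abs_tendsto_zero]
    exact squeeze_zero' (Eventually.of_forall fun n => abs_nonneg _)
      (hloc.mono fun n h => h.2.1) hκ0
  have hrp0 : Tendsto rp atTop (𝓝 0) :=
    squeeze_zero' (hloc.mono fun n h => h.2.2.1.le) (hloc.mono fun n h => h.2.2.2) hκ0
  have hκ8 : ∀ n : ℕ, 1 / ((n : ℝ) + 9) ≤ 1 / 8 := fun n =>
    one_div_le_one_div_of_le (by norm_num) (by have := Nat.cast_nonneg (α := ℝ) n; linarith)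
  -- the labels
  have hsq0 : Tendsto (fun n : ℕ => Real.sqrt (8 * (1 / ((n : ℝ) + 2)))) atTop (𝓝 0) := by
    have h1 : Tendsto (fun n : ℕ => 8 * (1 / ((n : ℝ) + 2))) atTop (𝓝 0) := by
      simpa using (inv_lim 2 (by norm_num)).const_mul 8
    have := (Real.continuous_sqrt.tendsto 0).comp h1
    rwa [Real.sqrt_zero] at this
  have hdl : Tendsto (fun n => u n + S n * xp n - a n) atTop (𝓝 0) := by
    rw [tendsto_zero_iff_abs_tendsto_zero]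
    have h1 : Tendsto (fun n : ℕ => Real.sqrt (8 * (1 / ((n : ℝ) + 2))) * (S n * rp n)) atTop
        (𝓝 0) := by simpa using hsq0.mul (hS0.mul hrp0)
    exact squeeze_zero' (Eventually.of_forall fun n => abs_nonneg _) (hG.mono fun n h => h.la) h1
  have hat : Tendsto a atTop (𝓝 u₀) := by
    have h1 : Tendsto (fun n => u n + S n * xp n - (u n + S n * xp n - a n)) atTop
        (𝓝 (u₀ + 0 * 0 - 0)) := (hSq.ut.add (hS0.mul hxp0)).sub hdl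
    have e1 : (fun n => u n + S n * xp n - (u n + S n * xp n - a n)) = a := by
      funext n; ring
    rw [e1] at h1
    simpa using h1
  have hla := H560.lim_of W.Uj haA W.u0 hat
  obtain ⟨y', hy'⟩ : ∃ y' : ℕ → ℝ, ∀ n, y' n = y n - (P (u n)).re + S n * yp n + (P (a n)).re :=
    ⟨_, fun n => rfl⟩
  have hSq' : Sq A y₀ u₀ y' a := by
    refine ⟨?_, hat, haA⟩
    have h1 : Tendsto (fun n => (P (u n)).re) atTop (𝓝 (P u₀).re) :=
      (Complex.continuous_re.tendsto _).comp hlk.1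
    have h2 : Tendsto (fun n => (P (a n)).re) atTop (𝓝 (P u₀).re) :=
      (Complex.continuous_re.tendsto _).comp hla.1
    have h3 := ((hSq.yt.sub h1).add (hS0.mul hyp0)).add h2
    have e1 : y₀ - (P u₀).re + 0 * 0 + (P u₀).re = y₀ := by ring
    rw [e1] at h3
    exact h3.congr fun n => (hy' n).symm
  have hr : Tendsto (fun n => S n * rp n) atTop (𝓝[>] 0) := by
    rw [tendsto_nhdsWithin_iff]
    refine ⟨by simpa using hS0.mul hrp0, ?_⟩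
    filter_upwards [hloc] with n h
    exact mul_pos (hS n).1 h.2.2.1
  have hτv : Tendsto (fun n => (u n + S n * xp n - a n) / (S n * rp n)) atTop (𝓝 0) := by
    rw [tendsto_zero_iff_abs_tendsto_zero]
    refine squeeze_zero' (Eventually.of_forall fun n => abs_nonneg _) ?_ hsq0
    filter_upwards [hG, hloc] with n h1 h2
    have h3 : 0 < S n * rp n := mul_pos (hS n).1 h2.2.2.1
    show |(u n + S n * xp n - a n) / (S n * rp n)| ≤ _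
    rw [abs_div, abs_of_pos h3, div_le_iff₀ h3]
    exact h1.la
  have hrE : Tendsto (fun n => rp n * Real.log (E n)⁻¹) atTop (𝓝 0) := by
    refine squeeze_zero' ?_ ?_ hκ0
    · filter_upwards [hG, hloc] with n h1 h2
      have h3 : E n ≤ 1 := by rw [h1.pk.eq]; exact min_le_left _ _
      exact mul_nonneg h2.2.2.1.le (Real.log_nonneg ((one_le_inv₀ h1.pk.E0).2 h3))
    · filter_upwards [hG, hloc] with n h1 h2
      exact (mul_le_mul_of_nonneg_left (le_max_left _ _) h2.2.2.1.le).trans h1.pk.lg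
  -- the straight world at all slopes
  have hswa : ∀ γ : ℝ, 0 < γ → ∀ᶠ n in atTop, ∀ δ : ℝ, 0 < δ → δ ≤ s - k u₀ - γ →
      SW Λ H F q δ 1 (al ∘ Sm P Ψ (y n) (u n) (S n)) (p ∘ Sm P Ψ (y n) (u n) (S n))
        (th ∘ Sm P Ψ (y n) (u n) (S n)) := by
    intro γ hγ
    obtain ⟨τ₁, hτ₁, h1⟩ := H217.St.sw_ev W hSq (half_pos hγ)
    have hkn : ∀ᶠ n in atTop, k (u n) < k u₀ + γ / 2 :=
      hk0.eventually (gt_mem_nhds (by linarith))
    filter_upwards [h1, hkn, hS0.eventually (gt_mem_nhds hτ₁)] with n h2 h3 h4 δ hδ hδ2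
    exact h2 (S n) (hS n).1 h4.le δ hδ (by linarith)
  have hPkH : ∀ δ : ℝ, 0 < δ → δ < s - k u₀ → ∀ᶠ n in atTop,
      H920.PickIn.PkH Λ H F q X' om' e' V' δ (al ∘ Sm P Ψ (y n) (u n) (S n))
        (p ∘ Sm P Ψ (y n) (u n) (S n)) (th ∘ Sm P Ψ (y n) (u n) (S n)) (yp n) (xp n) (rp n) := by
    intro δ hδ hδ2
    filter_upwards [hswa (s - k u₀ - δ) (by linarith), hG, hloc] with n h1 h2 h3
    exact ⟨h1 δ hδ (by linarith), h3.1.trans (hκ8 n), h3.2.1.trans (hκ8 n), h3.2.2.1, h2.pk.mv⟩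
  -- constants
  obtain ⟨Cc, hCc, hcc⟩ := H920.PickIn.pick_c W.crv.cv hgr (X := X') (om := om') (e := e')
    (V := V') hX'2 b5 (by linarith) b7 b8
  have hsm2 : ∀ᶠ n in atTop, (X' + 5) * rp n ≤ 1 / 2 := by
    have h1 : Tendsto (fun n => (X' + 5) * rp n) atTop (𝓝 0) := by
      simpa using hrp0.const_mul (X' + 5)
    exact h1.eventually (ge_mem_nhds (by norm_num : (0 : ℝ) < 1 / 2))
  have hM : ∀ᶠ n in atTop, ∃ M : ℤ,
      ‖al (Sm P Ψ (y n) (u n) (S n) (pt (yp n) (xp n) (rp n))) - 2 * Real.pi * M‖ ≤ Cc ∧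
      ‖p (Sm P Ψ (y n) (u n) (S n) (pt (yp n) (xp n) (rp n)))‖ ≤ Cc := by
    filter_upwards [hPkH γ₀ hγ0 (by rw [hγ₀]; linarith), hsm2] with n h1 h2
    obtain ⟨⟨M, h3⟩, h4, -⟩ := hcc h1 h2
    exact ⟨M, h3, h4⟩
  obtain ⟨M, hM⟩ := hM.choice
  refine t_of_picks2 hTd W b1 b2 b3 b4 b5 b6 b7 b8 b9 hSq' hr (hTo y' a hSq') hτv
    (v := fun n => u n + S n * xp n) (y := y) (u := u) (S := S) (yp := yp) (xp := xp) (rp := rp)
    (fun n => ⟨by rw [hy' n]; ring, rfl, rfl⟩) hU hrp0 hrE ?_ hswa ?_ (hU hM)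
    (A' := fun n => {x | u n + S n * x ∈ A}) (B' := fun n => ball 0 2)
    (η := fun n => 1 / ((n : ℝ) + 2)) (κ := fun n => 1 / ((n : ℝ) + 9))
  · filter_upwards [hG, hloc] with n h1 h2
    exact ⟨h2.1.trans (hκ8 n), h2.2.1.trans (hκ8 n), h2.2.2.1, h1.pk.E0,
      by rw [h1.pk.eq]; exact min_le_left _ _, h1.pk⟩
  · intro γ hγ hγ2 Z hZ hZs
    obtain ⟨Aa, a1, a2, a3⟩ := H920.PickIn.pick_in W hgr hSq hL
      (fun n => ⟨(hS n).1, (hS n).2.1⟩) hS0 hU hX'2 b5 (by linarith) b7 b8 hγ2 (by linarith) hZ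
      (hZs.trans inter_subset_right) (y' := yp) (x' := xp) (r' := rp)
      (hU (hPkH _ hγ2 (by linarith))) (hrp0.mono_left hU)
    exact ⟨Aa, Eventually.of_forall a1, a2, a3⟩

end

/-- **ST-10, block (T)** : `SelSt → TdSt → PT` -/
theorem pt_of_st (hB : H226.W.Brg) (hSel : SelSt) (hTd : TdSt) : A5.PT := by
  intro Λ H F q b m Ψ Mj Mk B A P c k K s al p th J
  by_cases hA : IsCompact A
  · obtain ⟨Nl, h0, hNl⟩ := H133.St.jm_ae hA.measurableSet hA.isBounded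
    refine ⟨Nl, h0, fun {y₀ u₀ σ y u} W hSq hTo hu {C c₁} hC hc₁ {h g V₁} hN hg _ hL _ {d} hd
      hw => ?_⟩
    obtain ⟨X, om, e, V, τ, hX, hom, hom1, he, hV, hτ, _, hin⟩ :=
      H217.St.sel_in hB W hSq hC hc₁ hN hg hL.bd hd hw
    exact pt_core hSel hTd W hSq hTo
      (fun n η hη => hNl (u n) (hSq.uA n) (hu n) 2 two_pos η hη) (fun n => (hg n).1) hL hX hom hom1
      he hV hτ (hin.mono fun n h S a1 a2 a3 => (h S a1 a2 a3).2)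
  · exact ⟨∅, measure_empty, fun W => absurd W.cA hA⟩

end Vale.Agent.P097.H286.T
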