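import Vale.Agent.P097.H286.T.TSt
import Vale.Agent.P097.H920.St.Grow
import Vale.Agent.P097.H845.St.Use
import Vale.Agent.P097.H560.ExpU
import Vale.Agent.P097.H190.Seq4

/-!
# P097 / block (T), ST-10 : a sequence of picks with `TdSt` is contradictory
-/

set_option linter.all false

open Set Filter Metric Topology MeasureTheory

namespace Vale.Agent.P097.H286.T

open Vale.Agent.P097.TC
open Vale.Agent.P097.A5 (W5 Sq Tou)
open Vale.Agent.P097.H560 (Sx Sm)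
open Vale.Agent.P097.H226.W (Bx Qu SQ SW Md Vq)
open Vale.Agent.P097.H509.St
open Vale.Agent.P097.H845.St (pt Pc)

/-- the frame at the pick -/
theorem Sx_pick {P : ℝ → ℂ} {Ψ : ℂ → ℂ} {x v ρ y u S y₀ x₀ r : ℝ}
    (hx : x = y - (P u).re + S * y₀) (hv : v = u + S * x₀) (hρ : ρ = S * r) (z : ℂ × ℂ) :
    Sx Ψ x v ρ z = Sm P Ψ y u S (tr y₀ x₀ ((r : ℂ) • z)) := by
  subst hx hv hρ
  simp only [Sx, Sm, tr, Prod.smul_fst, Prod.smul_snd, smul_eq_mul]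
  have h1 : ((u + S * x₀ : ℝ) : ℂ) + ((S * r : ℝ) : ℂ) * z.2 = (u : ℂ) + S * (x₀ + r * z.2) := by
    push_cast; ring
  rw [h1]
  refine Prod.ext ?_ ?_
  · simp only
    push_cast
    ring
  · rfl

/-- scaling of the pieces -/
theorem Pc_unit {X om y x r : ℝ} (hr : 0 < r) {z : ℂ × ℂ} (hz : z ∈ Pc X om y x r) :
    ∃ w ∈ Pc X om 0 0 1, z = tr y x ((r : ℂ) • w) := by
  have hr' : (r : ℂ) ≠ 0 := by exact_mod_cast hr.ne'
  obtain ⟨h1, h2, h3, h4, h5, h6⟩ := hz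
  refine ⟨((r : ℂ)⁻¹ * (z.1 - y), (r : ℂ)⁻¹ * (z.2 - x)), ?_, ?_⟩
  · have e1 : ((r : ℂ)⁻¹ * (z.1 - y)).re = r⁻¹ * (z.1.re - y) := by
      rw [← Complex.ofReal_inv, Complex.re_ofReal_mul]; simp
    have e2 : ((r : ℂ)⁻¹ * (z.1 - y)).im = r⁻¹ * z.1.im := by
      rw [← Complex.ofReal_inv, Complex.im_ofReal_mul]; simp
    have e3 : ((r : ℂ)⁻¹ * (z.2 - x)).re = r⁻¹ * (z.2.re - x) := by
      rw [← Complex.ofReal_inv, Complex.re_ofReal_mul]; simp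
    have e4 : ((r : ℂ)⁻¹ * (z.2 - x)).im = r⁻¹ * z.2.im := by
      rw [← Complex.ofReal_inv, Complex.im_ofReal_mul]; simp
    have hri : 0 < r⁻¹ := inv_pos.2 hr
    have f : ∀ {a b : ℝ}, a ≤ b * r → r⁻¹ * a ≤ b * 1 := by
      intro a b h
      have := mul_le_mul_of_nonneg_left h hri.le
      have e : r⁻¹ * (b * r) = b * 1 := by field_simp
      linarith
    have g : ∀ {a b : ℝ}, b * r ≤ a → b * 1 ≤ r⁻¹ * a := by
      intro a b h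
      have := mul_le_mul_of_nonneg_left h hri.le
      have e : r⁻¹ * (b * r) = b * 1 := by field_simp
      linarith
    refine ⟨?_, ?_, ?_, ?_, ?_, ?_⟩
    · simp only
      rw [e1, sub_zero, abs_mul, abs_of_pos hri]
      exact f h1
    · simp only
      rw [e3, sub_zero, abs_mul, abs_of_pos hri]
      exact f h2
    · simp only
      rw [e2, ← mul_neg]
      exact g h3
    · simp only
      rw [e2, ← mul_neg]
      exact f h4
    · simp only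
      rw [e4]
      exact g h5
    · simp only
      rw [e4]
      exact f h6
  · simp only [tr, Prod.smul_mk, smul_eq_mul]
    refine Prod.ext ?_ ?_
    · simp only
      rw [mul_inv_cancel_left₀ hr']; ring
    · simp only
      rw [mul_inv_cancel_left₀ hr']; ring

theorem Pc_unit_cpt (X om : ℝ) : IsCompact (Pc X om 0 0 1) := by
  refine Metric.isCompact_of_isClosed_isBounded ?_ ?_
  · have e : Pc X om 0 0 1 = {z : ℂ × ℂ | |z.1.re - 0| ≤ X * 1} ∩ ({z | |z.2.re - 0| ≤ X * 1} ∩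
        ({z | om * 1 ≤ -z.1.im} ∩ ({z | -z.1.im ≤ X * 1} ∩ ({z | om * 1 ≤ z.2.im} ∩
          {z | z.2.im ≤ X * 1})))) := rfl
    rw [e]
    refine (isClosed_le ?_ continuous_const).inter ((isClosed_le ?_ continuous_const).inter
      ((isClosed_le continuous_const ?_).inter ((isClosed_le ?_ continuous_const).inter
        ((isClosed_le continuous_const ?_).inter (isClosed_le ?_ continuous_const)))))
    · exact ((Complex.continuous_re.comp continuous_fst).sub continuous_const).abs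
    · exact ((Complex.continuous_re.comp continuous_snd).sub continuous_const).abs
    · exact (Complex.continuous_im.comp continuous_fst).neg
    · exact (Complex.continuous_im.comp continuous_fst).neg
    · exact Complex.continuous_im.comp continuous_snd
    · exact Complex.continuous_im.comp continuous_snd
  · refine (Metric.isBounded_closedBall (x := (0 : ℂ × ℂ)) (r := 2 * |X| + |om|)).subset
      fun z hz => ?_
    obtain ⟨h1, h2, h3, h4, h5, h6⟩ := hz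
    rw [mem_closedBall_zero_iff, Prod.norm_def]
    have hX := le_abs_self X
    have hom := neg_abs_le om
    have a1 : |z.1.im| ≤ |X| + |om| := by
      rw [abs_le]
      have := abs_nonneg X
      have := abs_nonneg om
      constructor <;> linarith
    have a2 : |z.2.im| ≤ |X| + |om| := by
      rw [abs_le]
      have := abs_nonneg X
      have := abs_nonneg om
      constructor <;> linarith
    rw [sub_zero] at h1 h2
    refine max_le ?_ ?_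
    · refine (Complex.norm_le_abs_re_add_abs_im _).trans ?_
      linarith
    · refine (Complex.norm_le_abs_re_add_abs_im _).trans ?_
      linarith

section
variable {Λ H : ℝ} {F q : ℂ → ℂ} {b m : ℝ} {Ψ : ℂ → ℂ} {Mj Mk B : Set (ℂ × ℂ)} {A : Set ℝ}
  {P : ℝ → ℂ} {c k : ℝ → ℝ} {K s y₀ u₀ σ : ℝ} {al p th : ℂ × ℂ → ℂ} {J : ℂ → ℂ}

/-- a sequence of picks with `TdSt` is contradictory (bounds along the ultrafilter) -/
theorem t_of_picks2 (hTd : TdSt) (W : W5 Λ H F q b m Ψ Mj Mk B A P c k K y₀ u₀ σ s al p th J)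
    {Xp op X om e V C₀ : ℝ} (hXp : 2 ≤ Xp) (hop : 0 < op) (hop' : op ≤ 1 / 2) (hX : Xp ≤ X)
    (hom : 0 < om) (hom' : om ≤ op) (he : 0 < e) (hV : 0 ≤ V) (hC₀ : 0 < C₀)
    {y u S yp xp rp E y' v r a : ℕ → ℝ} {M : ℕ → ℤ} {Cc : ℝ}
    (hS : Sq A y₀ u₀ y' a) (hr : Tendsto r atTop (𝓝[>] 0)) (hT : Tou H P c u₀ σ th y' a)
    (hτ : Tendsto (fun n => (v n - a n) / r n) atTop (𝓝 0))
    (hfr : ∀ n, y' n - (P (a n)).re = y n - (P (u n)).re + S n * yp n ∧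
      v n = u n + S n * xp n ∧ r n = S n * rp n)
    {𝒰 : Ultrafilter ℕ} (hU : (𝒰 : Filter ℕ) ≤ atTop)
    (hrp : Tendsto rp atTop (𝓝 0))
    (hrE : Tendsto (fun n => rp n * Real.log (E n)⁻¹) atTop (𝓝 0))
    {A' B' : ℕ → Set ℝ} {η κ : ℕ → ℝ}
    (hev : ∀ᶠ n in atTop, |yp n| ≤ 1 / 8 ∧ |xp n| ≤ 1 / 8 ∧ 0 < rp n ∧ 0 < E n ∧
      E n ≤ 1 ∧
      Pick H F (al ∘ Sm P Ψ (y n) (u n) (S n)) (p ∘ Sm P Ψ (y n) (u n) (S n))
        (th ∘ Sm P Ψ (y n) (u n) (S n)) (A' n) (B' n) Xp op X om e V C₀ (η n) (κ n)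
        (yp n) (xp n) (rp n) (E n))
    (hsw : ∀ γ : ℝ, 0 < γ → ∀ᶠ n in atTop, ∀ δ : ℝ, 0 < δ → δ ≤ s - k u₀ - γ →
      SW Λ H F q δ 1 (al ∘ Sm P Ψ (y n) (u n) (S n)) (p ∘ Sm P Ψ (y n) (u n) (S n))
        (th ∘ Sm P Ψ (y n) (u n) (S n)))
    (hAa : ∀ γ : ℝ, 0 < γ → 0 < s - k u₀ - γ → ∀ Z : Set (ℂ × ℂ), IsCompact Z →
      Z ⊆ Bx 1 ∩ H226.W.Wd (s - k u₀ - γ) → ∃ Aa : ℕ → ℝ, (∀ᶠ n in (𝒰 : Filter ℕ), 0 ≤ Aa n) ∧
      Tendsto (fun n => rp n * Aa n) (𝒰 : Filter ℕ) (𝓝 0) ∧ ∀ᶠ n in (𝒰 : Filter ℕ), ∀ z ∈ Z,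
      ‖LL (al ∘ Sm P Ψ (y n) (u n) (S n)) (p ∘ Sm P Ψ (y n) (u n) (S n)) z -
        LL (al ∘ Sm P Ψ (y n) (u n) (S n)) (p ∘ Sm P Ψ (y n) (u n) (S n))
          (pt (yp n) (xp n) (rp n))‖ ≤ Real.exp (Aa n))
    (hcc : ∀ᶠ n in (𝒰 : Filter ℕ),
      ‖al (Sm P Ψ (y n) (u n) (S n) (pt (yp n) (xp n) (rp n))) - 2 * Real.pi * M n‖ ≤ Cc ∧
      ‖p (Sm P Ψ (y n) (u n) (S n) (pt (yp n) (xp n) (rp n)))‖ ≤ Cc) : False := by
  have hk : Tendsto (fun n => k (a n)) (𝒰 : Filter ℕ) (𝓝 (k u₀)) :=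
    (H560.lim_of W.Uj hS.uA W.u0 (hS.ut.mono_left hU)).2.2
  have hkσ : k u₀ ≤ σ := H190.SQ.k_le W hS hT 𝒰 hU hk
  have hσs := W.σs
  have hg : H226.W.Grw H F q := H190.SQ.grw_of W
  have hc : Cv Λ H F q := W.crv.cv
  -- frame
  have fr : ∀ n z, Sx Ψ (y' n - (P (a n)).re) (v n) (r n) z =
      Sm P Ψ (y n) (u n) (S n) (tr (yp n) (xp n) ((rp n : ℂ) • z)) := fun n z =>
    Sx_pick (hfr n).1 (hfr n).2.1 (hfr n).2.2 z
  have hrpU := hrp.mono_left hU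
  -- radius conditions
  have hsm1 : ∀ᶠ n in atTop, rp n ≤ 1 / (4 * Xp) :=
    (hrp.eventually (ge_mem_nhds (by positivity : (0 : ℝ) < 1 / (4 * Xp))))
  have hsm2 : ∀ᶠ n in atTop, (X + 5) * rp n ≤ 1 / 2 := by
    have h1 : Tendsto (fun n => (X + 5) * rp n) atTop (𝓝 0) := by simpa using hrp.const_mul (X + 5)
    exact h1.eventually (ge_mem_nhds (by norm_num : (0 : ℝ) < 1 / 2))
  -- the moving points
  set γ₀ : ℝ := (s - k u₀) / 2 with hγ₀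
  have hγ0 : 0 < γ₀ := by rw [hγ₀]; linarith
  have hpts : ∀ᶠ n in (𝒰 : Filter ℕ), ∃ t : (ℂ × ℂ) × (ℂ × ℂ) × (ℂ × ℂ),
      (t.1 ∈ Pc Xp op 0 0 1 ∧ t.2.1 ∈ Pc Xp op 0 0 1 ∧
        (om ≤ -t.2.2.1.im ∧ om ≤ t.2.2.2.im ∧ ‖t.2.2‖ ≤ X)) ∧
      1 / 2 * E n ≤ ‖al (Sx Ψ (y' n - (P (a n)).re) (v n) (r n) t.1) -
        al (Sx Ψ (y' n - (P (a n)).re) (v n) (r n) t.2.1)‖ +
        ‖p (Sx Ψ (y' n - (P (a n)).re) (v n) (r n) t.1) -
        p (Sx Ψ (y' n - (P (a n)).re) (v n) (r n) t.2.1)‖ ∧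
      |(th (Sx Ψ (y' n - (P (a n)).re) (v n) (r n) t.2.2)).im| ≤ H - e := by
    filter_upwards [hU hev, hU (hsw γ₀ hγ0), hU hsm1, hU hsm2] with n k1 k2 k3 k4
    obtain ⟨y8, x8, r0, E0, E1, pk⟩ := k1
    have hw := k2 γ₀ hγ0 (by rw [hγ₀]; linarith)
    obtain ⟨w₁, hw₁, w₂, hw₂, hosc⟩ := H845.StP.exists_osc_sw hw hXp hop
      (y := yp n) (x := xp n) (ρ := rp n) (by linarith) (by linarith) r0 k3
      (by rw [← pk.eq]; exact E0)
    obtain ⟨z₁, hz₁, e₁⟩ := Pc_unit r0 hw₁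
    obtain ⟨z₂, hz₂, e₂⟩ := Pc_unit r0 hw₂
    obtain ⟨β, b1, b2, b3, b4, b5⟩ := (pk.mv (rp n) le_rfl k4).1
    have hr' : (rp n : ℂ) ≠ 0 := by exact_mod_cast r0.ne'
    refine ⟨(z₁, z₂, ((rp n : ℂ)⁻¹ • β)), ⟨hz₁, hz₂, ?_, ?_, ?_⟩, ?_, ?_⟩
    · simp only
      rw [Prod.smul_fst, smul_eq_mul, ← Complex.ofReal_inv, Complex.im_ofReal_mul, ← mul_neg,
        ← div_eq_inv_mul, le_div_iff₀ r0]
      exact b1
    · simp only
      rw [Prod.smul_snd, smul_eq_mul, ← Complex.ofReal_inv, Complex.im_ofReal_mul,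
        ← div_eq_inv_mul, le_div_iff₀ r0]
      exact b2
    · simp only
      rw [norm_smul, norm_inv, Complex.norm_real, Real.norm_of_nonneg r0.le, ← div_eq_inv_mul,
        div_le_iff₀ r0]
      exact b3
    · simp only
      rw [fr, fr, ← e₁, ← e₂]
      rw [← pk.eq] at hosc
      have h3 : ‖LL (al ∘ Sm P Ψ (y n) (u n) (S n)) (p ∘ Sm P Ψ (y n) (u n) (S n)) w₁ -
          LL (al ∘ Sm P Ψ (y n) (u n) (S n)) (p ∘ Sm P Ψ (y n) (u n) (S n)) w₂‖ ≤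
          ‖al (Sm P Ψ (y n) (u n) (S n) w₁) - al (Sm P Ψ (y n) (u n) (S n) w₂)‖ +
          ‖p (Sm P Ψ (y n) (u n) (S n) w₁) - p (Sm P Ψ (y n) (u n) (S n) w₂)‖ := by
        rw [LL, LL, Prod.mk_sub_mk, Prod.norm_def]
        exact max_le_add_of_nonneg (norm_nonneg _) (norm_nonneg _)
      linarith
    · simp only
      rw [fr, smul_smul, mul_inv_cancel₀ hr', one_smul]
      exact b4
  obtain ⟨t, ht⟩ := hpts.choice
  set Kβ : Set (ℂ × ℂ) := {β | om ≤ -β.1.im ∧ om ≤ β.2.im ∧ ‖β‖ ≤ X} with hKβ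
  have hKβc : IsCompact Kβ := by
    refine Metric.isCompact_of_isClosed_isBounded ?_ ?_
    · have e : Kβ = {β : ℂ × ℂ | om ≤ -β.1.im} ∩ ({β | om ≤ β.2.im} ∩ {β | ‖β‖ ≤ X}) := rfl
      rw [e]
      refine (isClosed_le continuous_const ?_).inter ((isClosed_le continuous_const ?_).inter
        (isClosed_le continuous_norm continuous_const))
      · exact (Complex.continuous_im.comp continuous_fst).neg
      · exact Complex.continuous_im.comp continuous_snd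
    · refine (Metric.isBounded_closedBall (x := (0 : ℂ × ℂ)) (r := X)).subset fun z hz => ?_
      rw [mem_closedBall_zero_iff]
      exact hz.2.2
  refine t_end_st W hS hr hT hτ hU hk hkσ (E := E)
    (cA := fun n => al (Sm P Ψ (y n) (u n) (S n) (pt (yp n) (xp n) (rp n))))
    (cP := fun n => p (Sm P Ψ (y n) (u n) (S n) (pt (yp n) (xp n) (rp n))))
    (hU (hev.mono fun n h => ⟨h.2.2.2.1, h.2.2.2.2.1⟩))
    (θ := 3 / 4) (by norm_num) (by norm_num) ?_ (Kq := Pc Xp op 0 0 1 ∪ Kβ)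
    ((Pc_unit_cpt Xp op).union hKβc) ?_ (z₁ := fun n => (t n).1) (z₂ := fun n => (t n).2.1)
    (β := fun n => (t n).2.2) ?_ (c' := 1 / 2) (by norm_num) (ht.mono fun n h => h.2.1)
    (c0 := e) he (ht.mono fun n h => h.2.2) (M := M) (C := Cc)
    (hcc.mono fun n h => h.1) (hcc.mono fun n h => h.2)
  · -- bounds
    intro γ hγ X₁ hX₁ hX₁c
    set γ' : ℝ := min γ γ₀ with hγ'
    have hγ'0 : 0 < γ' := lt_min hγ hγ0
    have hγ'1 : γ' ≤ γ := min_le_left _ _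
    have hγ'2 : γ' ≤ γ₀ := min_le_right _ _
    have hδ : 0 < s - k u₀ - γ' := by rw [hγ₀] at hγ'2; linarith
    have hX₁' : X₁ ⊆ H226.W.Wd (s - k u₀ - γ') := hX₁.trans (H190.SQ.Wd_mono (by linarith))
    obtain ⟨K₁, hK₁, Z, hZc, hZs, G⟩ := H920.Grow.grow_seq hTd hc hg hXp hop hop' hX hom hom' he
      hV hC₀ hδ hX₁c hX₁'
    obtain ⟨Aa, hAa0, hAa1, hAa2⟩ := hAa γ' hγ'0 hδ Z hZc hZs
    refine ⟨5 * K₁, fun R hR => ?_⟩
    have hR0 : 0 < R := by linarith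
    have h1 := G (𝒰 : Filter ℕ) (fun n => al ∘ Sm P Ψ (y n) (u n) (S n))
      (fun n => p ∘ Sm P Ψ (y n) (u n) (S n)) (fun n => th ∘ Sm P Ψ (y n) (u n) (S n))
      yp xp rp E Aa (by
        filter_upwards [hU hev, hU (hsw γ' hγ'0), hAa2, hAa0] with n k1 k2 k3 A0
        obtain ⟨y8, x8, r0, E0, E1, pk⟩ := k1
        exact ⟨k2 _ hδ le_rfl, y8, x8, r0, E0, E1, A0, pk.mv, pk.gg, k3⟩)
      hrpU hAa1 (hrE.mono_left hU) R hR
    have hl4 : 1 + Real.log R ≤ 5 * R ^ (1 / 4 : ℝ) := by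
      have a1 := Real.log_le_rpow_div hR0.le (by norm_num : (0 : ℝ) < 1 / 4)
      have a2 := Real.one_le_rpow hR (by norm_num : (0 : ℝ) ≤ 1 / 4)
      have a3 : R ^ (1 / 4 : ℝ) / (1 / 4) = 4 * R ^ (1 / 4 : ℝ) := by ring
      linarith
    have hsq : Real.sqrt R * (1 + Real.log R) ≤ 5 * R ^ (3 / 4 : ℝ) := by
      have a1 : R ^ (3 / 4 : ℝ) = Real.sqrt R * R ^ (1 / 4 : ℝ) := by
        rw [Real.sqrt_eq_rpow, ← Real.rpow_add hR0]
        norm_num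
      rw [a1]
      calc Real.sqrt R * (1 + Real.log R) ≤ Real.sqrt R * (5 * R ^ (1 / 4 : ℝ)) :=
            mul_le_mul_of_nonneg_left hl4 (Real.sqrt_nonneg _)
        _ = 5 * (Real.sqrt R * R ^ (1 / 4 : ℝ)) := by ring
    filter_upwards [h1, hU hev] with n k1 k2 z hz
    have h2 := (k1 z hz).2
    have hE0 : 0 < E n := k2.2.2.2.1
    have h3 : K₁ * Real.sqrt R * (1 + Real.log R) * E n ≤ 5 * K₁ * R ^ (3 / 4 : ℝ) * E n := by
      refine mul_le_mul_of_nonneg_right ?_ hE0.le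
      calc K₁ * Real.sqrt R * (1 + Real.log R) = K₁ * (Real.sqrt R * (1 + Real.log R)) := by ring
        _ ≤ K₁ * (5 * R ^ (3 / 4 : ℝ)) := mul_le_mul_of_nonneg_left hsq hK₁
        _ = 5 * K₁ * R ^ (3 / 4 : ℝ) := by ring
    have h4 := h2.trans h3
    rw [LL, LL, Prod.mk_sub_mk, Prod.norm_def] at h4
    have h5 : Sx Ψ (y' n - (P (a n)).re) (v n) (r n) ((R : ℂ) • z) =
        Sm P Ψ (y n) (u n) (S n) (tr (yp n) (xp n) (((R * rp n : ℝ) : ℂ) • z)) := by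
      rw [fr, smul_smul]
      push_cast
      rw [mul_comm (rp n : ℂ)]
    rw [h5]
    exact ⟨(le_max_left _ _).trans h4, (le_max_right _ _).trans h4⟩
  · -- in the quadrant
    rintro z (hz | hz)
    · obtain ⟨h1, h2, h3, h4, h5, h6⟩ := hz
      exact ⟨by linarith, by linarith⟩
    · obtain ⟨h1, h2, h3⟩ := hz
      exact ⟨by linarith, by linarith⟩
  · filter_upwards [ht] with n h
    exact ⟨Or.inl h.1.1, Or.inl h.1.2.1, Or.inr h.1.2.2⟩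

/-- a sequence of picks with `TdSt` is contradictory -/
theorem t_of_picks (hTd : TdSt) (W : W5 Λ H F q b m Ψ Mj Mk B A P c k K y₀ u₀ σ s al p th J)
    {Xp op X om e V C₀ : ℝ} (hXp : 2 ≤ Xp) (hop : 0 < op) (hop' : op ≤ 1 / 2) (hX : Xp ≤ X)
    (hom : 0 < om) (hom' : om ≤ op) (he : 0 < e) (hV : 0 ≤ V) (hC₀ : 0 < C₀)
    {y u S yp xp rp E Aa y' v r a : ℕ → ℝ} {M : ℕ → ℤ} {Cc : ℝ}
    (hS : Sq A y₀ u₀ y' a) (hr : Tendsto r atTop (𝓝[>] 0)) (hT : Tou H P c u₀ σ th y' a)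
    (hτ : Tendsto (fun n => (v n - a n) / r n) atTop (𝓝 0))
    (hfr : ∀ n, y' n - (P (a n)).re = y n - (P (u n)).re + S n * yp n ∧
      v n = u n + S n * xp n ∧ r n = S n * rp n)
    (hrp : Tendsto rp atTop (𝓝 0)) (hrA : Tendsto (fun n => rp n * Aa n) atTop (𝓝 0))
    (hrE : Tendsto (fun n => rp n * Real.log (E n)⁻¹) atTop (𝓝 0))
    {A' B' : ℕ → Set ℝ} {η κ : ℕ → ℝ}
    (hev : ∀ᶠ n in atTop, 0 < S n ∧ |yp n| ≤ 1 / 8 ∧ |xp n| ≤ 1 / 8 ∧ 0 < rp n ∧ 0 < E n ∧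
      E n ≤ 1 ∧ 0 ≤ Aa n ∧
      Pick H F (al ∘ Sm P Ψ (y n) (u n) (S n)) (p ∘ Sm P Ψ (y n) (u n) (S n))
        (th ∘ Sm P Ψ (y n) (u n) (S n)) (A' n) (B' n) Xp op X om e V C₀ (η n) (κ n)
        (yp n) (xp n) (rp n) (E n))
    (hsw : ∀ γ : ℝ, 0 < γ → ∀ᶠ n in atTop, ∀ δ : ℝ, 0 < δ → δ ≤ s - k u₀ - γ →
      SW Λ H F q δ 1 (al ∘ Sm P Ψ (y n) (u n) (S n)) (p ∘ Sm P Ψ (y n) (u n) (S n))
        (th ∘ Sm P Ψ (y n) (u n) (S n)))
    (hAa : ∀ γ : ℝ, 0 < γ → ∀ Z : Set (ℂ × ℂ), IsCompact Z →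
      Z ⊆ Bx 1 ∩ H226.W.Wd (s - k u₀ - γ) → ∀ᶠ n in atTop, ∀ z ∈ Z,
      ‖LL (al ∘ Sm P Ψ (y n) (u n) (S n)) (p ∘ Sm P Ψ (y n) (u n) (S n)) z -
        LL (al ∘ Sm P Ψ (y n) (u n) (S n)) (p ∘ Sm P Ψ (y n) (u n) (S n))
          (pt (yp n) (xp n) (rp n))‖ ≤ Real.exp (Aa n))
    (hcc : ∀ᶠ n in atTop,
      ‖al (Sm P Ψ (y n) (u n) (S n) (pt (yp n) (xp n) (rp n))) - 2 * Real.pi * M n‖ ≤ Cc ∧
      ‖p (Sm P Ψ (y n) (u n) (S n) (pt (yp n) (xp n) (rp n)))‖ ≤ Cc) : False := by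
  obtain ⟨𝒰, hU⟩ := Ultrafilter.exists_le (atTop : Filter ℕ)
  refine t_of_picks2 hTd W hXp hop hop' hX hom hom' he hV hC₀ hS hr hT hτ hfr hU hrp hrE
    (hev.mono fun n h => ⟨h.2.1, h.2.2.1, h.2.2.2.1, h.2.2.2.2.1, h.2.2.2.2.2.1, h.2.2.2.2.2.2.2⟩)
    hsw (fun γ hγ _ Z hZ hZs => ⟨Aa, hU (hev.mono fun n h => h.2.2.2.2.2.2.1), hrA.mono_left hU,
      hU (hAa γ hγ Z hZ hZs)⟩) (hU hcc)

end

end Vale.Agent.P097.H286.T
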