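import Vale.Agent.P097.H286.T.PtOf
import Vale.Agent.P097.H21.W.Brg
import Vale.Agent.P097.H531.ST.Sel

/-!
# P097 / block (T) : `TdSt → A5.PT`
-/

set_option linter.all false

namespace Vale.Agent.P097.H286.T

open Vale.Agent.P097.H509.St

/-- **block (T)** hangs on `TdSt` alone -/
theorem pt_of_td (hTd : TdSt) : A5.PT := pt_of_st H21.W.brg H531.ST.sel_st hTd

end Vale.Agent.P097.H286.T
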