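import Vale.Agent.P097.H839.Tan.TEnd
import Vale.Agent.P097.H330.TC.St10
import Vale.Agent.P097.H190.Seq1
import Vale.Agent.P097.H560.Gen
import Vale.Agent.P097.H983.Har

/-!
# P097 / block (T), ST-10 (d) : from bounds in straight coordinates at the picks to the contradiction
-/

set_option linter.all false

open Set Filter Metric Topology MeasureTheory

namespace Vale.Agent.P097.H286.T

open Vale.Agent.P097.TC
open Vale.Agent.P097.H839.Tan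
open Vale.Agent.P097.H845 (jac)
open Vale.Agent.P097.H100 (Wc isOpen_Wc)
open Vale.Agent.P097.H929 (kpt kpt_eq bpt lsh lsh_im continuous_lsh Gc blow_dom ev_of CmpU)
open Vale.Agent.P097.A5 (W5 Sq Tou Dm)
open Vale.Agent.P097.H560 (Sx Sm Sm_eq)
open Vale.Agent.P097.H190 (SQ.st SQ.ts SQ.lin SQ.Exp)

section
variable {Λ H : ℝ} {F q : ℂ → ℂ} {b m : ℝ} {Ψ : ℂ → ℂ} {Mj Mk B : Set (ℂ × ℂ)} {A : Set ℝ}
  {P : ℝ → ℂ} {c k : ℝ → ℝ} {K s y₀ u₀ σ : ℝ} {al p th : ℂ × ℂ → ℂ} {J : ℂ → ℂ}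

/-- **the end of block (T) over the world, one cone** -/
theorem t_end1 (W : W5 Λ H F q b m Ψ Mj Mk B A P c k K y₀ u₀ σ s al p th J) {y u r : ℕ → ℝ}
    (S : Sq A y₀ u₀ y u) (hr : Tendsto r atTop (𝓝[>] 0)) (T : Tou H P c u₀ σ th y u)
    {𝒰 : Ultrafilter ℕ} (hU : (𝒰 : Filter ℕ) ≤ atTop) {cA cP : ℕ → ℂ} {E : ℕ → ℝ}
    (hE : ∀ᶠ n in (𝒰 : Filter ℕ), 0 < E n ∧ E n ≤ 1)
    (hb1 : ∀ X ⊆ Wc (s - σ), IsCompact X → ∃ C : ℝ, ∀ᶠ n in (𝒰 : Filter ℕ), ∀ z ∈ X,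
      ‖al (kpt (P (u n)).im (c u₀) σ (y n) (u n) (r n) z) - cA n‖ ≤ C * E n ∧
      ‖p (kpt (P (u n)).im (c u₀) σ (y n) (u n) (r n) z) - cP n‖ ≤ C * E n)
    {x₁ x₂ : ℂ × ℂ} (hx₁ : x₁ ∈ Wc (s - σ)) (hx₂ : x₂ ∈ Wc (s - σ))
    {v₁ v₂ : ℕ → ℂ × ℂ} (hv₁ : Tendsto v₁ 𝒰 (𝓝 x₁)) (hv₂ : Tendsto v₂ 𝒰 (𝓝 x₂)) {c' : ℝ}
    (hc' : 0 < c') (hnc : ∀ᶠ n in (𝒰 : Filter ℕ), c' * E n ≤
      ‖al (kpt (P (u n)).im (c u₀) σ (y n) (u n) (r n) (v₁ n)) -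
        al (kpt (P (u n)).im (c u₀) σ (y n) (u n) (r n) (v₂ n))‖ +
      ‖p (kpt (P (u n)).im (c u₀) σ (y n) (u n) (r n) (v₁ n)) -
        p (kpt (P (u n)).im (c u₀) σ (y n) (u n) (r n) (v₂ n))‖) {θ : ℝ} (hθ : θ < 1)
    (hgr : ∀ s'' < s - σ, ∀ M : ℝ, ∃ A₁ : ℝ, ∀ z ∈ Wc (s - σ), 1 ≤ z.2.im →
      z.1.im ≤ s'' * z.2.im → ‖z‖ ≤ M * z.2.im → ∀ᶠ n in (𝒰 : Filter ℕ),
      ‖al (kpt (P (u n)).im (c u₀) σ (y n) (u n) (r n) z) - cA n‖ ≤ A₁ * (1 + ‖z‖) ^ θ * E n ∧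
      ‖p (kpt (P (u n)).im (c u₀) σ (y n) (u n) (r n) z) - cP n‖ ≤ A₁ * (1 + ‖z‖) ^ θ * E n)
    {M : ℕ → ℤ} {C : ℝ} (hcA : ∀ᶠ n in (𝒰 : Filter ℕ), ‖cA n - 2 * Real.pi * M n‖ ≤ C)
    (hcP : ∀ᶠ n in (𝒰 : Filter ℕ), ‖cP n‖ ≤ C)
    {zb : ℂ × ℂ} (hzb : zb.1.im < 0 ∧ 0 < zb.2.im) {c0 : ℝ} (hc0 : 0 < c0)
    (hmid : ∀ᶠ n in (𝒰 : Filter ℕ),
      |(th (kpt (P (u n)).im (c u₀) σ (y n) (u n) (r n) zb)).im| ≤ H - c0) : False := by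
  have hy := S.yt.mono_left hU
  have hu := S.ut.mono_left hU
  have huA : ∀ᶠ n in (𝒰 : Filter ℕ), u n ∈ A := Eventually.of_forall S.uA
  have hr' := hr.mono_left hU
  have hE0 : ∀ᶠ n in (𝒰 : Filter ℕ), 0 < E n := hE.mono fun n h => h.1
  have hb : ∀ X ⊆ Wc (s - σ), IsCompact X → ∃ C : ℝ, ∀ᶠ n in (𝒰 : Filter ℕ), ∀ z ∈ X,
      DifferentiableAt ℂ (fun z => al (kpt (P (u n)).im (c u₀) σ (y n) (u n) (r n) z)) z ∧
      DifferentiableAt ℂ (fun z => p (kpt (P (u n)).im (c u₀) σ (y n) (u n) (r n) z)) z ∧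
      ‖al (kpt (P (u n)).im (c u₀) σ (y n) (u n) (r n) z) - cA n‖ ≤ C * E n ∧
      ‖p (kpt (P (u n)).im (c u₀) σ (y n) (u n) (r n) z) - cP n‖ ≤ C * E n := by
    intro X hX hXc
    obtain ⟨C, hC⟩ := hb1 X hX hXc
    refine ⟨C, ?_⟩
    filter_upwards [hC, w5_hd W hy hu huA hr' hX hXc] with n h1 h2 z hz
    exact ⟨(h2 z hz).1, (h2 z hz).2.1, h1 z hz⟩
  obtain ⟨A', P', dA, dP, tA, tP, nc, gr⟩ := H830.NC.nc_transfer (𝒰 := 𝒰) (D₁ := Wc (s - σ))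
    (D₂ := Wc (s - σ)) (isOpen_Wc _) (convex_Wc _) (isOpen_Wc _) (convex_Wc _)
    (by rw [inter_self]; exact ⟨x₁, hx₁⟩)
    (a := fun n z => al (kpt (P (u n)).im (c u₀) σ (y n) (u n) (r n) z))
    (p := fun n z => p (kpt (P (u n)).im (c u₀) σ (y n) (u n) (r n) z)) (ca := cA) (cp := cP)
    (ε := E) hE0 hb hb hx₁ hx₂ hv₁ hv₂ hc' hnc
  have N := nl9_of W S hr T hU (e := fun n => (E n : ℂ)) (by
      filter_upwards [hE0] with n hn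
      exact_mod_cast hn.ne') (dA.mono subset_union_left) (dP.mono subset_union_left)
    (tA.mono subset_union_left) (tP.mono subset_union_left) nc
  refine H330.T10.no_NL9 𝒰 (sub_pos.2 W.σs) W.crv.cv W.crv.cv.b0 W.crv.Fp W.crv.qp N
    (M := M) (C := max C 1) ?_ (hcA.mono fun n h => h.trans (le_max_left _ _))
    (hcP.mono fun n h => h.trans (le_max_left _ _)) (hth_of W S hr hU) hzb hc0 hmid hθ ?_ ?_
  · filter_upwards [hE] with n hn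
    rw [Complex.norm_real, Real.norm_of_nonneg hn.1.le]
    exact hn.2.trans (le_max_right _ _)
  · intro s'' hs'' M
    obtain ⟨A₁, hA₁⟩ := hgr s'' hs'' M
    exact ⟨A₁, fun z hz h1 h2 h3 => (gr z (Or.inl hz) _ (hA₁ z hz h1 h2 h3)).1⟩
  · intro s'' hs'' M
    obtain ⟨A₁, hA₁⟩ := hgr s'' hs'' M
    exact ⟨A₁, fun z hz h1 h2 h3 => (gr z (Or.inl hz) _ (hA₁ z hz h1 h2 h3)).2⟩

end

/-! ### straight coordinates and `kpt` -/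

theorem exp_of {M : Set (ℂ × ℂ)} {b m : ℝ} {Ψ : ℂ → ℂ} {A : Set ℝ} {P : ℝ → ℂ} {c k : ℝ → ℝ}
    (hU : CmpU M b m Ψ A P c k) {u : ℕ → ℝ} (huA : ∀ n, u n ∈ A) : SQ.Exp P Ψ c k u := by
  intro c₀ hc₀ ε hε
  obtain ⟨ρ, hρ, h⟩ := hU.cmp c₀ hc₀ ε hε
  exact ⟨ρ, hρ, fun n w h1 h2 h3 h4 => (h (u n) (huA n)).nt w h1 h2 h3 h4⟩

theorem Sx_shift (Ψ : ℂ → ℂ) (x v a : ℝ) {r : ℝ} (hr : r ≠ 0) (z : ℂ × ℂ) :
    Sx Ψ x a r z = Sx Ψ x v r (z.1, z.2 - (((v - a) / r : ℝ) : ℂ)) := by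
  have hr' : (r : ℂ) ≠ 0 := by exact_mod_cast hr
  have h1 : (v : ℂ) + (r : ℂ) * (z.2 - (((v - a) / r : ℝ) : ℂ)) = (a : ℂ) + (r : ℂ) * z.2 := by
    push_cast
    field_simp
    ring
  simp only [Sx]
  rw [h1]

theorem Sx_smul (Ψ : ℂ → ℂ) (x v r R : ℝ) (z : ℂ × ℂ) :
    Sx Ψ x v (R * r) z = Sx Ψ x v r ((R : ℂ) • z) := by
  simp only [Sx, Prod.smul_fst, Prod.smul_snd, smul_eq_mul]
  push_cast
  have h1 : (R : ℂ) * r * z.1 = r * (R * z.1) := by ring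
  have h2 : (R : ℂ) * r * z.2 = r * (R * z.2) := by ring
  rw [h1, h2]

theorem kpt_smul (R₀ c σ y a r R : ℝ) (z : ℂ × ℂ) :
    kpt R₀ c σ y a (R * r) z = kpt R₀ c σ y a r ((R : ℂ) • z) := by
  simp only [kpt_eq, Prod.smul_fst, Prod.smul_snd, smul_eq_mul]
  refine Prod.ext ?_ ?_
  · simp only
    push_cast
    ring
  · simp only
    push_cast
    ring

theorem kpt_Sx0 (P : ℝ → ℂ) (Ψ : ℂ → ℂ) {c₀ σ y a r : ℝ} (hr : r ≠ 0) (z : ℂ × ℂ) :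
    kpt (P a).im c₀ σ y a r z = Sx Ψ (y - (P a).re) a r (SQ.st P Ψ c₀ σ a r z) :=
  H190.SQ.kpt_eq_Sm P Ψ hr z

/-- the `kpt` chart at the label in the straight chart at the pick -/
theorem kpt_Sx (P : ℝ → ℂ) (Ψ : ℂ → ℂ) {c₀ σ y a r : ℝ} (hr : r ≠ 0) (v : ℝ) (z : ℂ × ℂ) :
    kpt (P a).im c₀ σ y a r z = Sx Ψ (y - (P a).re) v r
      ((SQ.st P Ψ c₀ σ a r z).1, (SQ.st P Ψ c₀ σ a r z).2 - (((v - a) / r : ℝ) : ℂ)) := by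
  rw [kpt_Sx0 P Ψ hr z, Sx_shift Ψ _ v a hr]

/-- the straight chart at the pick in the `kpt` chart at the label -/
theorem Sx_kpt (P : ℝ → ℂ) (Ψ : ℂ → ℂ) {c₀ σ y a r : ℝ} (hr : r ≠ 0) (v : ℝ) (z : ℂ × ℂ) :
    Sx Ψ (y - (P a).re) v r z = kpt (P a).im c₀ σ y a r
      (SQ.ts P Ψ c₀ σ a r (z.1, z.2 + (((v - a) / r : ℝ) : ℂ))) := by
  rw [kpt_Sx0 P Ψ hr, H190.SQ.st_ts, Sx_shift Ψ _ v a hr]
  simp only [add_sub_cancel_right, Prod.mk.eta]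

section
variable {P : ℝ → ℂ} {Ψ : ℂ → ℂ} {c k : ℝ → ℝ} {a r v : ℕ → ℝ} {u₀ σ k₀ s : ℝ}

theorem to_st (hE : SQ.Exp P Ψ c k a) (𝒰 : Filter ℕ)
    (hc : Tendsto (fun n => c (a n)) 𝒰 (𝓝 (c u₀))) (hk : Tendsto (fun n => k (a n)) 𝒰 (𝓝 k₀))
    (hr0 : ∀ᶠ n in 𝒰, 0 < r n) (hr : Tendsto r 𝒰 (𝓝 0))
    (hτ : Tendsto (fun n => (v n - a n) / r n) 𝒰 (𝓝 0)) {X : Set (ℂ × ℂ)} (hX : IsCompact X)
    (hXW : X ⊆ Wc (s - σ)) :
    ∃ γ > 0, ∃ W : Set (ℂ × ℂ), IsCompact W ∧ W ⊆ H226.W.Wd (s - k₀ - γ) ∧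
      ∀ R : ℝ, 1 ≤ R → ∀ᶠ n in 𝒰, ∀ y : ℝ, ∀ z ∈ X, ∃ ζ ∈ W,
        kpt (P (a n)).im (c u₀) σ y (a n) (r n) ((R : ℂ) • z) =
          Sx Ψ (y - (P (a n)).re) (v n) (r n) ((R : ℂ) • ζ) := by
  obtain ⟨γ, hγ, η, hη, hW1, hW2⟩ := H190.SQ.exists_W (k₀ := k₀) (s := s) (σ := σ) hX hXW
  refine ⟨γ, hγ, _, hW1, hW2, fun R hR => ?_⟩
  have hR0 : 0 < R := by linarith
  have hr0' : ∀ᶠ n in 𝒰, 0 < R * r n := hr0.mono fun n h => mul_pos hR0 h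
  have hr' : Tendsto (fun n => R * r n) 𝒰 (𝓝 0) := by simpa using hr.const_mul R
  have h1 := H190.SQ.st_near (r := fun n => R * r n) (σ := σ) hE 𝒰 hc hk hr0' hr' hX
    (fun z hz => (hXW hz).1) (half_pos hη)
  have h2 : ∀ᶠ n in 𝒰, |(v n - a n) / r n| < η / 2 := by
    have := Metric.tendsto_nhds.1 hτ (η / 2) (half_pos hη)
    filter_upwards [this] with n hn
    rw [Real.dist_eq, sub_zero] at hn
    exact hn
  filter_upwards [h1, h2, hr0] with n k1 k2 k3 y z hz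
  have k4 : R * r n ≠ 0 := (mul_pos hR0 k3).ne'
  refine ⟨((SQ.st P Ψ (c u₀) σ (a n) (R * r n) z).1,
    (SQ.st P Ψ (c u₀) σ (a n) (R * r n) z).2 - (((v n - a n) / (R * r n) : ℝ) : ℂ)), ?_, ?_⟩
  · refine mem_cthickening_of_dist_le _ (SQ.lin σ k₀ z) η _ (mem_image_of_mem _ hz) ?_
    have k5 := k1 z hz
    have e1 : |(v n - a n) / (R * r n)| ≤ η / 2 := by
      have e2 : (v n - a n) / (R * r n) = R⁻¹ * ((v n - a n) / r n) := by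
        field_simp
      rw [e2, abs_mul, abs_of_pos (inv_pos.2 hR0)]
      have e3 : R⁻¹ ≤ 1 := inv_le_one_of_one_le₀ hR
      calc R⁻¹ * |(v n - a n) / r n| ≤ 1 * |(v n - a n) / r n| :=
            mul_le_mul_of_nonneg_right e3 (abs_nonneg _)
        _ ≤ η / 2 := by rw [one_mul]; exact k2.le
    rw [dist_eq_norm]
    have e4 : ((SQ.st P Ψ (c u₀) σ (a n) (R * r n) z).1,
        (SQ.st P Ψ (c u₀) σ (a n) (R * r n) z).2 - (((v n - a n) / (R * r n) : ℝ) : ℂ)) -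
        SQ.lin σ k₀ z = (SQ.st P Ψ (c u₀) σ (a n) (R * r n) z - SQ.lin σ k₀ z) -
        ((0 : ℂ), (((v n - a n) / (R * r n) : ℝ) : ℂ)) := by
      refine Prod.ext ?_ ?_
      · simp
      · simp; ring
    rw [e4]
    refine (norm_sub_le _ _).trans ?_
    have e5 : ‖(((0 : ℂ), (((v n - a n) / (R * r n) : ℝ) : ℂ)) : ℂ × ℂ)‖ ≤ η / 2 := by
      rw [Prod.norm_def, norm_zero, Complex.norm_real, Real.norm_eq_abs]
      exact max_le (by positivity) e1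
    linarith
  · rw [← kpt_smul, ← Sx_smul]
    exact kpt_Sx P Ψ k4 (v n) z

/-- limits of moving points in the `kpt` chart -/
theorem ts_lim (hE : SQ.Exp P Ψ c k a) (𝒰 : Filter ℕ)
    (hc : Tendsto (fun n => c (a n)) 𝒰 (𝓝 (c u₀))) (hk : Tendsto (fun n => k (a n)) 𝒰 (𝓝 k₀))
    (hr0 : ∀ᶠ n in 𝒰, 0 < r n) (hr : Tendsto r 𝒰 (𝓝 0))
    (hτ : Tendsto (fun n => (v n - a n) / r n) 𝒰 (𝓝 0)) {z : ℕ → ℂ × ℂ} {z₀ : ℂ × ℂ}
    (hz : Tendsto z 𝒰 (𝓝 z₀)) (hz₀ : 0 < z₀.2.im) :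
    Tendsto (fun n => SQ.ts P Ψ (c u₀) σ (a n) (r n) ((z n).1, (z n).2 +
      (((v n - a n) / r n : ℝ) : ℂ))) 𝒰 (𝓝 (z₀.1 - ((σ - k₀ : ℝ) : ℂ) * z₀.2, z₀.2)) := by
  have hτ' : Tendsto (fun n => (((v n - a n) / r n : ℝ) : ℂ)) 𝒰 (𝓝 0) := by
    have h0 := (Complex.continuous_ofReal.tendsto 0).comp hτ
    rw [Complex.ofReal_zero] at h0
    exact h0
  have hz1 : Tendsto (fun n => (z n).1) 𝒰 (𝓝 z₀.1) := (continuous_fst.tendsto z₀).comp hz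
  have hz2 : Tendsto (fun n => (z n).2) 𝒰 (𝓝 z₀.2) := (continuous_snd.tendsto z₀).comp hz
  have hw : Tendsto (fun n => (z n).2 + (((v n - a n) / r n : ℝ) : ℂ)) 𝒰 (𝓝 z₀.2) := by
    simpa using hz2.add hτ'
  have hKp : ∀ w ∈ closedBall z₀.2 (z₀.2.im / 2), 0 < w.im := by
    intro w hw
    rw [mem_closedBall, dist_eq_norm] at hw
    have h1 := (Complex.abs_im_le_norm (w - z₀.2)).trans hw
    rw [Complex.sub_im] at h1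
    linarith [(abs_le.1 h1).1]
  have herr : Tendsto (fun n => (Ψ ((a n : ℂ) + r n * ((z n).2 + (((v n - a n) / r n : ℝ) : ℂ))) -
      P (a n)) / r n - (Complex.I * c u₀ + k₀) * ((z n).2 + (((v n - a n) / r n : ℝ) : ℂ))) 𝒰
      (𝓝 0) := by
    rw [tendsto_zero_iff_norm_tendsto_zero, Metric.tendsto_nhds]
    intro ε hε
    have h1 := H190.SQ.err_small (k₀ := k₀) hE 𝒰 hc hk hr0 hr (isCompact_closedBall z₀.2
      (z₀.2.im / 2)) hKp (half_pos hε)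
    have h2 : ∀ᶠ n in 𝒰, (z n).2 + (((v n - a n) / r n : ℝ) : ℂ) ∈
        closedBall z₀.2 (z₀.2.im / 2) := hw (closedBall_mem_nhds _ (half_pos hz₀))
    filter_upwards [h1, h2] with n k1 k2
    rw [Real.dist_eq, sub_zero, abs_of_nonneg (norm_nonneg _)]
    exact (k1 _ k2).trans_lt (half_lt_self hε)
  refine Tendsto.prodMk_nhds ?_ hw
  have h3 := (hz1.sub (hw.const_mul ((σ - k₀ : ℝ) : ℂ))).add herr
  rw [add_zero] at h3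
  refine h3.congr fun n => ?_
  push_cast
  ring

end

section
variable {Λ H : ℝ} {F q : ℂ → ℂ} {b m : ℝ} {Ψ : ℂ → ℂ} {Mj Mk B : Set (ℂ × ℂ)} {A : Set ℝ}
  {P : ℝ → ℂ} {c k : ℝ → ℝ} {K s y₀ u₀ σ : ℝ} {al p th : ℂ × ℂ → ℂ} {J : ℂ → ℂ}

/-- the base point -/
theorem mid_lim (W : W5 Λ H F q b m Ψ Mj Mk B A P c k K y₀ u₀ σ s al p th J) {y u r : ℕ → ℝ}
    {l : Filter ℕ} (hy : Tendsto y l (𝓝 y₀)) (hu : Tendsto u l (𝓝 u₀))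
    (huA : ∀ᶠ n in l, u n ∈ A) (hr : Tendsto r l (𝓝[>] 0)) {zb : ℂ × ℂ}
    (hzb : zb.1.im < 0 ∧ 0 < zb.2.im) {β : ℕ → ℂ × ℂ} (hβ : Tendsto β l (𝓝 zb)) {c0 : ℝ}
    (hmid : ∀ᶠ n in l,
      |(th (kpt (P (u n)).im (c u₀) σ (y n) (u n) (r n) (β n))).im| ≤ H - c0) :
    ∀ᶠ n in l, |(th (kpt (P (u n)).im (c u₀) σ (y n) (u n) (r n) zb)).im| ≤ H - c0 / 2 := by
  obtain ⟨ρ, hρ, hρG⟩ := Metric.nhds_basis_closedBall.mem_iff.1 (isOpen_G.mem_nhds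
    (show zb ∈ {z : ℂ × ℂ | z.1.im < 0 ∧ 0 < z.2.im} from hzb))
  have h1 := w5_rt W hy hu huA hr (isCompact_closedBall zb ρ) (fun z hz => hρG hz)
  have h2 : ∀ᶠ n in l, β n ∈ closedBall zb (ρ / 3) := hβ (closedBall_mem_nhds _ (by positivity))
  filter_upwards [h1, h2, hmid] with n k1 k2 k3
  rw [mem_closedBall, dist_eq_norm] at k2
  have h3 := (H983.wall_ball (E := ℂ × ℂ)
    (θ := fun z => th (kpt (P (u n)).im (c u₀) σ (y n) (u n) (r n) z)) (c := zb) (z := β n)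
    (R := ρ) (H := H)
    (fun z hz => (k1 z (ball_subset_closedBall hz)).1.differentiableWithinAt)
    (fun z hz => (k1 z (ball_subset_closedBall hz)).2.1) (by linarith)).2
  set d := ‖β n - zb‖ with hd
  have hd0 : 0 ≤ d := norm_nonneg _
  set X := H - |(th (kpt (P (u n)).im (c u₀) σ (y n) (u n) (r n) zb)).im| with hX
  have hX0 : 0 ≤ X := by
    have := (k1 zb (mem_closedBall_self hρ.le)).2.1
    have h4 : |(th (kpt (P (u n)).im (c u₀) σ (y n) (u n) (r n) zb)).im| < H := this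
    rw [hX]; linarith
  have h5 : c0 ≤ H - |(th (kpt (P (u n)).im (c u₀) σ (y n) (u n) (r n) (β n))).im| := by linarith
  have h6 : c0 / 2 ≤ X := by
    by_contra hcon
    push Not at hcon
    have h7 : (ρ - d) * c0 ≤
        (ρ - d) * (H - |(th (kpt (P (u n)).im (c u₀) σ (y n) (u n) (r n) (β n))).im|) :=
      mul_le_mul_of_nonneg_left h5 (by linarith)
    have h8 : (ρ + d) * X ≤ (4 * ρ / 3) * X := mul_le_mul_of_nonneg_right (by linarith) hX0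
    have h9 : 0 < c0 := by linarith
    have h10 : (2 * ρ / 3) * c0 ≤ (ρ - d) * c0 := mul_le_mul_of_nonneg_right (by linarith) h9.le
    nlinarith
  rw [hX] at h6
  linarith

/-- **ST-10 (d)** : bounds in straight coordinates at the picks are contradictory -/
theorem t_end_st (W : W5 Λ H F q b m Ψ Mj Mk B A P c k K y₀ u₀ σ s al p th J) {y a v r : ℕ → ℝ}
    (S : Sq A y₀ u₀ y a) (hr : Tendsto r atTop (𝓝[>] 0)) (T : Tou H P c u₀ σ th y a)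
    (hτ : Tendsto (fun n => (v n - a n) / r n) atTop (𝓝 0))
    {𝒰 : Ultrafilter ℕ} (hU : (𝒰 : Filter ℕ) ≤ atTop) {k₀ : ℝ}
    (hk : Tendsto (fun n => k (a n)) (𝒰 : Filter ℕ) (𝓝 k₀)) (hkσ : k₀ ≤ σ)
    {cA cP : ℕ → ℂ} {E : ℕ → ℝ} (hE : ∀ᶠ n in (𝒰 : Filter ℕ), 0 < E n ∧ E n ≤ 1)
    {θ : ℝ} (hθ0 : 0 ≤ θ) (hθ : θ < 1)
    (hb : ∀ γ > 0, ∀ X ⊆ H226.W.Wd (s - k₀ - γ), IsCompact X → ∃ C : ℝ, ∀ R : ℝ, 1 ≤ R →
      ∀ᶠ n in (𝒰 : Filter ℕ), ∀ z ∈ X,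
      ‖al (Sx Ψ (y n - (P (a n)).re) (v n) (r n) ((R : ℂ) • z)) - cA n‖ ≤ C * R ^ θ * E n ∧
      ‖p (Sx Ψ (y n - (P (a n)).re) (v n) (r n) ((R : ℂ) • z)) - cP n‖ ≤ C * R ^ θ * E n)
    {Kq : Set (ℂ × ℂ)} (hKq : IsCompact Kq) (hKq' : Kq ⊆ H226.W.Qu) {z₁ z₂ β : ℕ → ℂ × ℂ}
    (hzK : ∀ᶠ n in (𝒰 : Filter ℕ), z₁ n ∈ Kq ∧ z₂ n ∈ Kq ∧ β n ∈ Kq) {c' : ℝ} (hc' : 0 < c')
    (hnc : ∀ᶠ n in (𝒰 : Filter ℕ), c' * E n ≤
      ‖al (Sx Ψ (y n - (P (a n)).re) (v n) (r n) (z₁ n)) -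
        al (Sx Ψ (y n - (P (a n)).re) (v n) (r n) (z₂ n))‖ +
      ‖p (Sx Ψ (y n - (P (a n)).re) (v n) (r n) (z₁ n)) -
        p (Sx Ψ (y n - (P (a n)).re) (v n) (r n) (z₂ n))‖)
    {c0 : ℝ} (hc0 : 0 < c0) (hmid : ∀ᶠ n in (𝒰 : Filter ℕ),
      |(th (Sx Ψ (y n - (P (a n)).re) (v n) (r n) (β n))).im| ≤ H - c0)
    {M : ℕ → ℤ} {C : ℝ} (hcA : ∀ᶠ n in (𝒰 : Filter ℕ), ‖cA n - 2 * Real.pi * M n‖ ≤ C)
    (hcP : ∀ᶠ n in (𝒰 : Filter ℕ), ‖cP n‖ ≤ C) : False := by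
  have hEx := exp_of W.Uk S.uA
  have hy := S.yt.mono_left hU
  have hu := S.ut.mono_left hU
  have huA : ∀ᶠ n in (𝒰 : Filter ℕ), a n ∈ A := Eventually.of_forall S.uA
  have hr' := hr.mono_left hU
  have hr0 : ∀ᶠ n in (𝒰 : Filter ℕ), 0 < r n := hr'.eventually self_mem_nhdsWithin
  have hr1 : Tendsto r (𝒰 : Filter ℕ) (𝓝 0) := hr'.mono_right nhdsWithin_le_nhds
  have hτ' := hτ.mono_left hU
  have hc : Tendsto (fun n => c (a n)) (𝒰 : Filter ℕ) (𝓝 (c u₀)) :=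
    ((W.cc u₀ W.u0).tendsto).comp (tendsto_nhdsWithin_iff.2 ⟨hu, huA⟩)
  -- limits of the moving points
  have hlim : ∀ {z : ℕ → ℂ × ℂ}, (∀ᶠ n in (𝒰 : Filter ℕ), z n ∈ Kq) →
      ∃ x ∈ Kq, Tendsto z (𝒰 : Filter ℕ) (𝓝 x) := by
    intro z hz
    obtain ⟨x, hx, hx2⟩ := hKq.ultrafilter_le_nhds (𝒰.map z)
      (by rw [Ultrafilter.coe_map, le_principal_iff]; exact hz)
    exact ⟨x, hx, hx2⟩
  obtain ⟨w₁, hw₁, l1⟩ := hlim (hzK.mono fun n h => h.1)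
  obtain ⟨w₂, hw₂, l2⟩ := hlim (hzK.mono fun n h => h.2.1)
  obtain ⟨w₃, hw₃, l3⟩ := hlim (hzK.mono fun n h => h.2.2)
  have t1 := ts_lim (σ := σ) hEx _ hc hk hr0 hr1 hτ' l1 (hKq' hw₁).2
  have t2 := ts_lim (σ := σ) hEx _ hc hk hr0 hr1 hτ' l2 (hKq' hw₂).2
  have t3 := ts_lim (σ := σ) hEx _ hc hk hr0 hr1 hτ' l3 (hKq' hw₃).2
  have him : ∀ w : ℂ × ℂ, (w.1 - ((σ - k₀ : ℝ) : ℂ) * w.2).im = w.1.im - (σ - k₀) * w.2.im := by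
    intro w
    rw [Complex.sub_im, Complex.im_ofReal_mul]
  have hG : ∀ w ∈ Kq, (w.1 - ((σ - k₀ : ℝ) : ℂ) * w.2).im < 0 ∧ 0 < w.2.im := by
    intro w hw
    obtain ⟨h1, h2⟩ := hKq' hw
    refine ⟨?_, h2⟩
    rw [him]
    nlinarith [mul_nonneg (sub_nonneg.2 hkσ) h2.le]
  have hWc : ∀ w ∈ Kq, ((w.1 - ((σ - k₀ : ℝ) : ℂ) * w.2, w.2) : ℂ × ℂ) ∈ Wc (s - σ) :=
    fun w hw => G_sub (sub_pos.2 W.σs) (hG w hw)
  refine t_end1 W S hr T hU hE (x₁ := (w₁.1 - ((σ - k₀ : ℝ) : ℂ) * w₁.2, w₁.2))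
    (x₂ := (w₂.1 - ((σ - k₀ : ℝ) : ℂ) * w₂.2, w₂.2)) ?_ (hWc _ hw₁) (hWc _ hw₂) t1 t2 hc' ?_ hθ ?_
    hcA hcP (zb := (w₃.1 - ((σ - k₀ : ℝ) : ℂ) * w₃.2, w₃.2)) (hG _ hw₃) (half_pos hc0) ?_
  · -- bounds on compacts
    intro X hX hXc
    obtain ⟨γ, hγ, X', hX'c, hX'W, h1⟩ := to_st hEx _ hc hk hr0 hr1 hτ' hXc hX
    obtain ⟨C, hC⟩ := hb γ hγ X' hX'W hX'c
    refine ⟨C, ?_⟩
    filter_upwards [h1 1 le_rfl, hC 1 le_rfl] with n k1 k2 z hz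
    obtain ⟨ζ, hζ, h3⟩ := k1 (y n) z hz
    have h4 := k2 ζ hζ
    rw [Real.one_rpow, mul_one, ← h3] at h4
    simpa using h4
  · filter_upwards [hnc, hr0] with n h1 h2
    rw [← Sx_kpt P Ψ h2.ne' (v n) (z₁ n), ← Sx_kpt P Ψ h2.ne' (v n) (z₂ n)]
    exact h1
  · -- growth
    intro s'' hs'' M₀
    set M₁ : ℝ := max M₀ 1 with hM₁
    have hM1 : 0 < M₁ := lt_max_of_lt_right one_pos
    set X : Set (ℂ × ℂ) := {ζ | ‖ζ‖ = 1 ∧ ζ.1.im ≤ s'' * ζ.2.im ∧ 1 ≤ M₁ * ζ.2.im} with hX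
    have hXc : IsCompact X := by
      refine Metric.isCompact_of_isClosed_isBounded ?_ ?_
      · have hXe : X = {ζ : ℂ × ℂ | ‖ζ‖ = 1} ∩ ({ζ : ℂ × ℂ | ζ.1.im ≤ s'' * ζ.2.im} ∩
            {ζ : ℂ × ℂ | 1 ≤ M₁ * ζ.2.im}) := rfl
        rw [hXe]
        refine (isClosed_eq continuous_norm continuous_const).inter
          ((isClosed_le ?_ ?_).inter (isClosed_le continuous_const ?_))
        · exact Complex.continuous_im.comp continuous_fst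
        · exact continuous_const.mul (Complex.continuous_im.comp continuous_snd)
        · exact continuous_const.mul (Complex.continuous_im.comp continuous_snd)
      · refine (Metric.isBounded_closedBall (x := (0 : ℂ × ℂ)) (r := 1)).subset fun z hz => ?_
        rw [mem_closedBall_zero_iff]
        exact hz.1.le
    have hXW : X ⊆ Wc (s - σ) := by
      rintro z ⟨h1, h2, h3⟩
      have h4 : 0 < z.2.im := by
        by_contra hcon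
        push Not at hcon
        nlinarith
      exact ⟨h4, h2.trans_lt (mul_lt_mul_of_pos_right hs'' h4)⟩
    obtain ⟨γ, hγ, X', hX'c, hX'W, h1⟩ := to_st hEx _ hc hk hr0 hr1 hτ' hXc hXW
    obtain ⟨C, hC⟩ := hb γ hγ X' hX'W hX'c
    refine ⟨max C 0, fun z hz g1 g2 g3 => ?_⟩
    have hR1 : 1 ≤ ‖z‖ := g1.trans ((le_abs_self _).trans
      ((Complex.abs_im_le_norm _).trans (norm_snd_le z)))
    have hR0 : 0 < ‖z‖ := by linarith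
    have hR' : ((‖z‖ : ℝ) : ℂ) ≠ 0 := by exact_mod_cast hR0.ne'
    have hzX : (((‖z‖ : ℝ) : ℂ)⁻¹ • z) ∈ X := by
      have e1 : (((‖z‖ : ℝ) : ℂ)⁻¹ • z).1.im = ‖z‖⁻¹ * z.1.im := by
        rw [Prod.smul_fst, smul_eq_mul, ← Complex.ofReal_inv, Complex.im_ofReal_mul]
      have e2 : (((‖z‖ : ℝ) : ℂ)⁻¹ • z).2.im = ‖z‖⁻¹ * z.2.im := by
        rw [Prod.smul_snd, smul_eq_mul, ← Complex.ofReal_inv, Complex.im_ofReal_mul]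
      refine ⟨?_, ?_, ?_⟩
      · rw [norm_smul, norm_inv, Complex.norm_real, norm_norm, inv_mul_cancel₀ hR0.ne']
      · rw [e1, e2]
        have := mul_le_mul_of_nonneg_left g2 (inv_pos.2 hR0).le
        linarith
      · rw [e2]
        have e3 : ‖z‖ ≤ M₁ * z.2.im :=
          g3.trans (mul_le_mul_of_nonneg_right (le_max_left _ _) (by linarith))
        have e4 := mul_le_mul_of_nonneg_left e3 (inv_pos.2 hR0).le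
        rw [inv_mul_cancel₀ hR0.ne'] at e4
        linarith
    filter_upwards [h1 ‖z‖ hR1, hC ‖z‖ hR1, hE] with n k1 k2 k3
    obtain ⟨ζ, hζ, h3⟩ := k1 (y n) _ hzX
    have h4 := k2 ζ hζ
    rw [smul_smul, mul_inv_cancel₀ hR', one_smul] at h3
    rw [← h3] at h4
    have e5 : C * ‖z‖ ^ θ * E n ≤ max C 0 * (1 + ‖z‖) ^ θ * E n := by
      refine mul_le_mul_of_nonneg_right ?_ k3.1.le
      refine mul_le_mul (le_max_left _ _) (Real.rpow_le_rpow hR0.le (by linarith) hθ0)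
        (Real.rpow_nonneg hR0.le _) (le_max_right _ _)
    exact ⟨h4.1.trans e5, h4.2.trans e5⟩
  · -- base point
    refine mid_lim W hy hu huA hr' (hG _ hw₃) t3 ?_
    filter_upwards [hmid, hr0] with n h1 h2
    rw [← Sx_kpt P Ψ h2.ne' (v n) (β n)]
    exact h1

end

end Vale.Agent.P097.H286.T
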